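import Vale.Agent.P216.H949.Spec
import Vale.Agent.P216.H921B.Comp

/-!
# P216, malnormality: a path of loops of bounded level does not change the circle
-/

set_option linter.all false

open Set Topology unitInterval

namespace Vale.Agent.P216.H975

open Vale.Agent.P216.L250 Vale.Agent.P216.H494 Vale.Agent.P216.H971B Vale.Agent.P216.H949

variable {M : Type} [MetricSpace M]

/-- The clopen step. -/
theorem clopen_circle {G : GeoList M} {a ε₀ ε : ℝ} {g₀ : LM M} (hε : 0 < ε) (h2 : 2 * ε ≤ ε₀)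
    (hA : ∀ z ∈ Geo1 G a, ∀ θ : ℝ, dist z (rot θ g₀) < ε₀ → ∃ θ', z = rot θ' g₀)
    {F : I → LM M} (hF : Continuous F) (hz : ∀ s, ∃ z ∈ Geo1 G a, dist (F s) z < ε)
    (s₀ : I) (h0 : ∃ θ, dist (F s₀) (rot θ g₀) < ε) (s : I) :
    ∃ θ, dist (F s) (rot θ g₀) < ε := by
  have hopen : IsOpen {s | ∃ θ, dist (F s) (rot θ g₀) < ε} := by
    have : {s | ∃ θ, dist (F s) (rot θ g₀) < ε} = ⋃ θ, {s | dist (F s) (rot θ g₀) < ε} := by
      ext; simp
    rw [this]
    exact isOpen_iUnion fun θ => isOpen_lt (by fun_prop) continuous_const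
  have hclosed : IsClosed {s | ∃ θ, dist (F s) (rot θ g₀) < ε} := by
    rw [← isOpen_compl_iff, isOpen_iff_mem_nhds]
    intro s hs
    obtain ⟨z, hz1, hz2⟩ := hz s
    have h3 : {s' | dist (F s') z < ε} ∈ 𝓝 s :=
      (isOpen_lt (by fun_prop) continuous_const).mem_nhds hz2
    filter_upwards [h3] with s' hs' hcon
    obtain ⟨θ, hθ⟩ := hcon
    obtain ⟨θ', rfl⟩ := hA z hz1 θ (by linarith [dist_triangle_left z (rot θ g₀) (F s')])
    exact hs ⟨θ', hz2⟩
  have h3 := IsClopen.eq_univ ⟨hclosed, hopen⟩ ⟨s₀, h0⟩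
  have h4 : s ∈ {s | ∃ θ, dist (F s) (rot θ g₀) < ε} := by
    rw [h3]
    exact mem_univ s
  exact h4

theorem joined_path {g₀ g₁ : LM M} (Γ : Path g₀ g₁) (s : I) : Joined (Γ s) g₀ := by
  refine Joined.symm ⟨⟨⟨fun u => Γ (u * s), by fun_prop⟩, ?_, ?_⟩⟩
  · simp
  · simp

/-- A path of loops of level `T` between closed geodesics of the lowest level stays on one
circle. -/
theorem same_circle [CompactSpace M] {ρ : ℝ} (hρ : 0 < ρ) (hU : LS.UniqSeg M ρ) (G : GeoList M)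
    {a T : ℝ} {g₀ g₁ : LM M} (ha : 0 < a) (haT : a < T) (h₀ : g₀ ∈ Geo1 G a)
    (h₁ : g₁ ∈ Geo1 G a) (hE : Ecl M a g₀ ⊆ Geo1 G a)
    (hno : ∀ b, a < b → b ≤ T → ∀ x ∈ Geo1 G b, ¬ Joined x g₀)
    (hRA : ∃ ε > 0, ∀ z ∈ Geo1 G a, ∀ θ : ℝ, dist z (rot θ g₀) < ε → ∃ θ', z = rot θ' g₀)
    (Γ : Path g₀ g₁) (hΓ : ∀ s, Γ s ∈ XE M T) : ∃ θ, g₁ = rot θ g₀ := by
  obtain ⟨ε₀, hε₀, hA⟩ := hRA
  have hε : 0 < ε₀ / 2 := by positivity
  obtain ⟨δ, hδ, hnear⟩ := H921B.exists_near hU hρ ha.le g₀ hε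
  set a' := min (a + δ) T with ha'
  have haa' : a < a' := lt_min (by linarith) haT
  have ha'T : a' ≤ T := min_le_right _ _
  have ha'0 : 0 < a' := ha.trans haa'
  obtain ⟨D, hDc, hD0, hDm, hDj, hD1⟩ := V893.Dsc.exists_desc hρ hU G g₀ ha'0 ha'T
    (fun b hb g hg => hno b (haa'.trans_le hb.1) hb.2 g hg)
  have hXE : Geo1 G a ⊆ XE M a := by
    rintro g (hg | hg)
    · exact KK_subset_XE (Or.inl rfl) ha.le hg
    · exact KK_subset_XE (Or.inr rfl) ha.le hg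
  have hline : ∀ g ∈ Geo1 G a, Joined g g₀ → ∀ u : I, D u g ∈ Geo1 G a := by
    intro g hg hj u
    refine hE ⟨hDm a ha.le haT.le u u.2 g (hXE hg), ?_⟩
    exact (hDj u u.2 g (XE_mono ha.le haT.le (hXE hg))).symm.trans hj
  have hcont : ∀ g ∈ Geo1 G a, Continuous fun u : I => D u g := by
    intro g hg
    refine hDc.comp_continuous (f := fun u : I => ((u : ℝ), g)) (by fun_prop) fun u => ?_
    exact ⟨u.2, XE_mono ha.le haT.le (hXE hg)⟩
  have hj₁ : Joined g₁ g₀ := by simpa using joined_path Γ 1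
  -- first piece
  have s1 : ∃ θ, dist (D 1 g₀) (rot θ g₀) < ε₀ / 2 := by
    have := clopen_circle (F := fun u : I => D u g₀) hε (by linarith) hA (hcont g₀ h₀)
      (fun u => ⟨_, hline g₀ h₀ (Joined.refl _) u, by simpa using hε⟩) 0
      ⟨0, by simpa [hD0] using hε⟩ 1
    simpa using this
  -- second piece
  have s2 : ∃ θ, dist (D 1 g₁) (rot θ g₀) < ε₀ / 2 := by
    have hc : Continuous fun s : I => D 1 (Γ s) :=
      hDc.comp_continuous (f := fun s : I => ((1 : ℝ), Γ s)) (by fun_prop)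
        fun s => ⟨⟨zero_le_one, le_rfl⟩, hΓ s⟩
    have := clopen_circle (F := fun s : I => D 1 (Γ s)) hε (by linarith) hA hc
      (fun s => by
        have h1 : D 1 (Γ s) ∈ Ecl M (a + δ) g₀ :=
          ⟨XE_mono ha'0.le (min_le_left _ _) (hD1 (Γ s) (hΓ s) (joined_path Γ s)),
            (hDj 1 ⟨zero_le_one, le_rfl⟩ _ (hΓ s)).symm.trans (joined_path Γ s)⟩
        obtain ⟨z, hz, hd⟩ := hnear _ h1
        exact ⟨z, hE hz, hd⟩) 0 (by simpa using s1) 1
    simpa using this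
  -- third piece
  have s3 : ∃ θ, dist g₁ (rot θ g₀) < ε₀ / 2 := by
    have := clopen_circle (F := fun u : I => D u g₁) hε (by linarith) hA (hcont g₁ h₁)
      (fun u => ⟨_, hline g₁ h₁ hj₁ u, by simpa using hε⟩) 1 (by simpa using s2) 0
    simpa [hD0] using this
  obtain ⟨θ, hθ⟩ := s3
  exact hA g₁ h₁ θ (by linarith)

/-- A closed geodesic is not a rotation of its reversal. -/
theorem rev_ne_rot {G : GeoList M} {a : ℝ} (ha : 0 < a) {g : LM M} (hg : g ∈ G.KK 1 a) (θ : ℝ) :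
    L250.rev g ≠ rot θ g := fun h =>
  disjoint_left.1 (disjoint_KK (G := G) ha) (rot_mem_KK hg θ) (h ▸ rev_mem_KK hg)

end Vale.Agent.P216.H975
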