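import Vale.Agent.P216.H126B.Homot2

/-!
# P216: conjugate closed paths are freely homotopic
-/

set_option linter.all false

open Set Topology unitInterval

namespace Vale.Agent.P216.H975

open Vale.Agent.P216.L250
open Vale.Agent.P216.H126B (Q RQ pthN pw lp fn_lp lp_eq joined_lp joined_rot)
open Path.Homotopic.Quotient (mk)

variable {M : Type} [MetricSpace M]

theorem joined_cyc {a b : M} (u : Path a b) (v : Path b a) :
    Joined (lp (u.trans v)) (lp (v.trans u)) := by
  have h : lp (v.trans u) = rot (1 / 2) (lp (u.trans v)) := by
    refine lp_eq _ _ fun t => ?_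
    rw [fn_rot, Path.trans_apply]
    split_ifs with ht
    · rw [fn_lp _ (by linarith [t.2.1]) (by linarith), Path.extend_apply _
        ⟨by linarith [t.2.1], by linarith⟩, Path.trans_apply]
      split_ifs with ht'
      · have h0 : (t : ℝ) = 0 := by
          have := t.2.1
          simp only at ht'
          linarith
        have h1 : t = 0 := Subtype.ext h0
        subst h1
        simp
      · congr 1
        ext
        simp only
        ring
    · have hper := fn_periodic (lp (u.trans v)) ((t : ℝ) - 1 / 2)
      rw [show (t : ℝ) - 1 / 2 + 1 = t + 1 / 2 by ring] at hper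
      push Not at ht
      rw [hper, fn_lp _ (by linarith) (by linarith [t.2.2]), Path.extend_apply _
        ⟨by linarith, by linarith [t.2.2]⟩, Path.trans_apply]
      split_ifs with ht'
      · congr 1
        ext
        simp only
        ring
      · exfalso
        simp only at ht'
        linarith [t.2.2]
  rw [h]
  exact joined_rot _ _

theorem joined_of_conj {a b : M} {p : Path a a} {q : Path b b} (ω : Q a b)
    (h : (mk p).trans ω = ω.trans (mk q)) : Joined (lp p) (lp q) := by
  induction ω using Path.Homotopic.Quotient.ind with
  | mk w =>
  have h1 : p.Homotopic (w.trans (q.trans w.symm)) := by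
    rw [← Path.Homotopic.Quotient.eq, Path.Homotopic.Quotient.mk_trans,
      Path.Homotopic.Quotient.mk_trans, ← Path.Homotopic.Quotient.trans_assoc, ← h,
      Path.Homotopic.Quotient.trans_assoc, Path.Homotopic.Quotient.mk_symm,
      Path.Homotopic.Quotient.trans_symm, Path.Homotopic.Quotient.trans_refl]
  have h2 : ((q.trans w.symm).trans w).Homotopic q := by
    rw [← Path.Homotopic.Quotient.eq, Path.Homotopic.Quotient.mk_trans,
      Path.Homotopic.Quotient.mk_trans, Path.Homotopic.Quotient.trans_assoc,
      Path.Homotopic.Quotient.mk_symm, Path.Homotopic.Quotient.symm_trans,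
      Path.Homotopic.Quotient.trans_refl]
  exact ((joined_lp h1).trans (joined_cyc w (q.trans w.symm))).trans (joined_lp h2)

end Vale.Agent.P216.H975
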